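import Vale.Agent.P290S.S1
import Vale.Agent.P290.Main

/-! Translation to the working definitions. -/

open scoped Manifold ContDiff Topology

noncomputable section

namespace Vale.Agent.P290S

section

variable {X : Type} [TopologicalSpace X] [ChartedSpace C2 X]

/-- The bilinear form of a two-form. -/
def IsSympl.bil {σ : X → C2 → C2 → ℂ} (h : IsSympl σ) (x : X) : C2 →ₗ[ℂ] C2 →ₗ[ℂ] ℂ :=
  LinearMap.mk₂ ℂ (σ x) (fun u u' v => (h.lin x v).map_add u u')
    (fun c u v => (h.lin x v).map_smul c u)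
    (fun u v v' => by
      rw [h.swap x u (v + v'), (h.lin x u).map_add, h.swap x u v, h.swap x u v']; ring)
    (fun c u v => by
      rw [h.swap x u (c • v), (h.lin x u).map_smul, h.swap x u v]; simp)

/-- The two-form in the working form. -/
def IsSympl.form {σ : X → C2 → C2 → ℂ} (h : IsSympl σ) : P290.Form2 X := fun x => h.bil x

theorem IsSympl.old {σ : X → C2 → C2 → ℂ} (h : IsSympl σ) : P290.IsSympl h.form where
  alt x u := by
    have := h.swap x u u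
    show σ x u u = 0
    linear_combination (1 / 2 : ℂ) * this
  ne x h0 := by
    obtain ⟨u, v, huv⟩ := h.ne x
    exact huv (LinearMap.congr_fun₂ h0 u v)
  hol := h.hol

theorem TwoPencils.old (h : TwoPencils X) : P290.TwoPencils X := h

theorem IsWehler.old (h : IsWehler X) : P290.IsWehler X := h

theorem Twist.old {X' : Type} [TopologicalSpace X'] [ChartedSpace C2 X'] (h : Twist X X') :
    P290.Twist X X' := by
  obtain ⟨σ', π, π', a₀, a₁, φ₀, φ₁, ψ₀, ψ₁, t, hσ, h1, h2, h3, h4, h5, h6, h7⟩ := h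
  refine ⟨hσ.form, π, π', a₀, a₁, φ₀, φ₁, ψ₀, ψ₁, t, hσ.old, h1, h2, h3, h4,
    ⟨h5.hol, h5.hol', h5.ov, h5.ov', h5.left, h5.right⟩,
    ⟨h6.hol, h6.hol', h6.ov, h6.ov', h6.left, h6.right⟩, fun x hx hx' => ?_⟩
  obtain ⟨γ, hγ, e⟩ := h7 x hx hx'
  exact ⟨γ, ⟨mdifferentiableOn_univ.1 hγ.1, hγ.2⟩, e⟩

end

theorem isOka_iff {X : Type} [MetricSpace X] [ChartedSpace C2 X] : IsOka X ↔ P290.IsOka X := by
  refine ⟨fun h m K U f ε h1 h2 h3 h4 h5 h6 h7 => ?_, fun h m K U f ε h1 h2 h3 h4 h5 h6 h7 => ?_⟩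
  · obtain ⟨F, hF, hF'⟩ := h m K U f ε h1 h2 h3 h4 h5 h6 h7
    exact ⟨F, mdifferentiableOn_univ.1 hF, hF'⟩
  · obtain ⟨F, hF, hF'⟩ := h m K U f ε h1 h2 h3 h4 h5 h6 h7
    exact ⟨F, mdifferentiableOn_univ.2 hF, hF'⟩

theorem main1 :
    (∀ (X : Type) [MetricSpace X] [CompactSpace X] [ChartedSpace C2 X], IsSurface X →
      (∃ σ : X → C2 → C2 → ℂ, IsSympl σ) → TwoPencils X → IsOka X) ∧
    (∀ (X X' : Type) [MetricSpace X] [CompactSpace X] [ChartedSpace C2 X] [MetricSpace X']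
      [CompactSpace X'] [ChartedSpace C2 X'], IsSurface X → IsSurface X' → Twist X X' →
      (IsOka X ↔ IsOka X')) ∧
    ∀ (X : Type) [MetricSpace X] [CompactSpace X] [ChartedSpace C2 X], IsSurface X →
      IsWehler X → IsOka X := by
  refine ⟨fun X _ _ _ hX ⟨σ, hσ⟩ h => ?_, fun X X' _ _ _ _ _ _ hX hX' h => ?_,
    fun X _ _ _ hX h => ?_⟩
  · have : IsManifold 𝓘(ℂ, C2) ω X := hX
    exact isOka_iff.2 (P290.main.1 X ⟨_, hσ.old⟩ h.old)
  · have : IsManifold 𝓘(ℂ, C2) ω X := hX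
    have : IsManifold 𝓘(ℂ, C2) ω X' := hX'
    rw [isOka_iff, isOka_iff]
    exact P290.main.2.1 X X' h.old
  · have : IsManifold 𝓘(ℂ, C2) ω X := hX
    exact isOka_iff.2 (P290.main.2.2 X h.old)

end Vale.Agent.P290S
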