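import Vale.Agent.P290S.S2
import Vale.Agent.P290S.Br1
import Vale.Agent.P290.D44
import Vale.Agent.P290.KumP
import Vale.Agent.P290.Diag
import Vale.Agent.P290.SplQ

/-! The explicit families. -/

open scoped Manifold ContDiff Topology

noncomputable section

namespace Vale.Agent.P290S

theorem main2 (X : Type) [MetricSpace X] [CompactSpace X] [ChartedSpace C2 X] (hX : IsSurface X)
    (h : IsWehler X ∨ IsDouble X ∨ IsKumProd X ∨ IsDiag X ∨ IsSplitQ X) : IsOka X := by
  have : IsManifold 𝓘(ℂ, C2) ω X := hX
  rcases h with h | h | h | h | h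
  · exact main1.2.2 X hX h
  · exact isOka_iff.2 (P290.oka_double h)
  · exact isOka_iff.2 (P290.oka_kumProd h)
  · exact isOka_iff.2 (P290.oka_diag h)
  · exact isOka_iff.2 (P290.oka_splitQ h)

end Vale.Agent.P290S
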