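import Vale.Agent.P290S.S3
import Vale.Agent.P290S.Br2
import Vale.Agent.P290G.Main3

/-! General elliptic K3 surfaces. -/

open scoped Manifold ContDiff Topology

noncomputable section

namespace Vale.Agent.P290S

section

variable {X : Type} [TopologicalSpace X] [ChartedSpace C2 X]

/-- The two-form as a plain function. -/
def plain (σ : P290.Form2 X) : X → C2 → C2 → ℂ := fun x u v => P290.sg σ x u v

theorem plain_sympl {σ : P290.Form2 X} (h : P290.IsSympl σ) : IsSympl (plain σ) where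
  lin x v := ⟨fun u u' => by simp [plain], fun c u => by simp [plain]⟩
  swap x u v := P290.Sg.swap (B := P290.sg σ x) (h.alt x) u v
  ne x := by
    by_contra hn
    push Not at hn
    exact h.ne x (LinearMap.ext₂ hn)
  hol := h.hol

theorem pol_eval {n : ℕ} (α : Fin n → ℂ) (z : ℂ) :
    (P290.pol α).eval z = ∑ i, α i * z ^ (i : ℕ) := by
  simp [P290.pol, Polynomial.eval_finsetSum]

theorem hasInv_iff {σ : X → C2 → C2 → ℂ} {σ' : P290.Form2 X}
    (e : ∀ x u v, σ x u v = P290.sg σ' x u v) {π : X → P1} {α : Fin 9 → ℂ} {β : Fin 13 → ℂ} :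
    HasInv σ π α β ↔ P290.HasInv σ' π (P290.pol α).eval (P290.pol β).eval := by
  have hc : ∀ γ, HamCurve σ (fun y => aff (π y)) γ ↔
      P290.HamCurve σ' (fun y => P290.aff (π y)) γ := fun γ =>
    and_congr mdifferentiableOn_univ (forall₂_congr fun s v => by rw [e]; rfl)
  refine forall₂_congr fun z _ => exists_congr fun L => ?_
  simp only [pol_eval]
  exact and_congr_right fun _ => and_congr_right fun _ => forall_congr' fun γ => by
    rw [hc]; rfl

end

theorem main3 : ∃ P : MvPolynomial (Fin 9 ⊕ Fin 13) ℂ, P ≠ 0 ∧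
    (∀ (X : Type) [MetricSpace X] [CompactSpace X] [ChartedSpace C2 X], IsSurface X →
      ∀ (σ : X → C2 → C2 → ℂ) (π : X → P1), IsEll σ π → (∃ α β, HasInv σ π α β) ∧
        ∀ α β, HasInv σ π α β → MvPolynomial.eval (Sum.elim α β) P ≠ 0 → IsOka X) ∧
    ∀ (α : Fin 9 → ℂ) (β : Fin 13 → ℂ), MvPolynomial.eval (Sum.elim α β) P ≠ 0 →
      ∃ (X : Type) (_ : MetricSpace X) (_ : CompactSpace X) (_ : ChartedSpace C2 X),
        IsSurface X ∧ ∃ (σ : X → C2 → C2 → ℂ) (π : X → P1), IsEll σ π ∧ HasInv σ π α β := by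
  obtain ⟨P, hP, h1, h2⟩ := P290.oka_generic
  refine ⟨P, hP, fun X _ _ _ hX σ π h => ?_, fun α β h0 => ?_⟩
  · have : IsManifold 𝓘(ℂ, C2) ω X := hX
    obtain ⟨⟨α, β, H⟩, H'⟩ := h1 X h.sym.form π ⟨h.sym.old, h.hol, h.fin, h.conn⟩
    exact ⟨⟨α, β, (hasInv_iff fun _ _ _ => rfl).2 H⟩, fun α β hI h0 =>
      isOka_iff.2 (H' α β ((hasInv_iff fun _ _ _ => rfl).1 hI) h0)⟩
  · obtain ⟨X, i1, i2, i3, i4, σ, π, h, hI⟩ := h2 α β h0
    exact ⟨X, i1, i2, i3, i4, plain σ, π, ⟨plain_sympl h.sym, h.hol, h.fin, h.conn⟩,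
      (hasInv_iff fun _ _ _ => rfl).2 hI⟩

end Vale.Agent.P290S
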