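import Vale.Agent.P290S.S4
import Vale.Agent.P290S.Br3
import Vale.Agent.P290K.KMain

/-! Families and Kummer surfaces. -/

open scoped Manifold ContDiff Topology

noncomputable section

namespace Vale.Agent.P290S

theorem IsKummer.old {X : Type} [TopologicalSpace X] [ChartedSpace C2 X]
    {Λ : Submodule ℤ (ℂ × ℂ)} {q : ℂ × ℂ → X} {e : ℂ × ℂ → ℂ × ℂ × ℂ → X} :
    IsKummer Λ q e ↔ P290.Kum Λ q e :=
  ⟨fun h => ⟨h.qeq, h.qhol, fun μ α h1 h2 => and_assoc.1 (h.ehol μ α h1 h2), h.eeq, h.ene,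
      h.cover⟩,
    fun h => ⟨h.qeq, h.qhol, fun μ α h1 h2 => and_assoc.2 (h.ehol μ α h1 h2), h.eeq, h.ene,
      h.cover⟩⟩

theorem main4 (T Y : Type) [NormedAddCommGroup T] [NormedSpace ℂ T] [FiniteDimensional ℂ T]
    [MetricSpace Y] [SecondCountableTopology Y] [ChartedSpace (C2 × T) Y] (B : Set T) (p : Y → T)
    (X : T → Type) [∀ t, MetricSpace (X t)] [∀ t, ChartedSpace C2 (X t)] (j : ∀ t, X t → Y)
    (h : IsFamily B p X j) (hB : IsOpen B) (hd : B ⊆ closure {t ∈ B | IsOka (X t)}) :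
    ∀ᶠ t in residual T, t ∈ B → IsOka (X t) := by
  have : IsManifold 𝓘(ℂ, C2 × T) ω Y := h.1
  simp only [isOka_iff] at hd ⊢
  exact P290.residual_oka (p := p) (j := j) ⟨h.2.1, fun t ht => (h.2.2 t ht).1,
    fun t ht => (h.2.2 t ht).2.2.2.2, fun t ht => (h.2.2 t ht).2.2.1,
    fun t ht => (h.2.2 t ht).2.2.2.1⟩ hB (fun t ht => (h.2.2 t ht).2.1) hd

theorem main5 :
    (∀ t : Fin 4 → ℂ × ℂ, LinearIndependent ℝ t →
      ∃ (X : Type) (_ : MetricSpace X) (_ : CompactSpace X) (_ : ChartedSpace C2 X),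
        IsSurface X ∧ ∃ (q : ℂ × ℂ → X) (e : ℂ × ℂ → ℂ × ℂ × ℂ → X),
          IsKummer (Submodule.span ℤ (Set.range t)) q e) ∧
    ∃ G ∈ residual (Fin 4 → ℂ × ℂ), ∀ t : Fin 4 → ℂ × ℂ, LinearIndependent ℝ t →
      (t ∈ G ∨ ∃ (v : ℂ × ℂ) (τ : ℂ), v ≠ 0 ∧ τ.im ≠ 0 ∧ v ∈ Submodule.span ℤ (Set.range t) ∧
        τ • v ∈ Submodule.span ℤ (Set.range t)) →
      ∀ (X : Type) [MetricSpace X] [ChartedSpace C2 X], IsSurface X →
        ∀ (q : ℂ × ℂ → X) (e : ℂ × ℂ → ℂ × ℂ × ℂ → X),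
          IsKummer (Submodule.span ℤ (Set.range t)) q e → IsOka X := by
  refine ⟨fun t ht => ?_, _, P290.kum_residual, fun t ht h X _ _ hX q e hk => ?_⟩
  · obtain ⟨X, i1, i2, i3, i4, q, e, h⟩ := P290.exists_kum ht
    exact ⟨X, i1, i2, i3, i4, q, e, IsKummer.old.2 h⟩
  · have : IsManifold 𝓘(ℂ, C2) ω X := hX
    rcases h with h | h
    · exact isOka_iff.2 (h ht X q e (IsKummer.old.1 hk))
    · exact isOka_iff.2 ((IsKummer.old.1 hk).oka_ell ht h)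

end Vale.Agent.P290S
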