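import Mathlib

/-! P290: definitions used in the statements. -/

open scoped Manifold ContDiff Topology

noncomputable section

namespace Vale.Agent.P290S

/-- The model space of complex surfaces. -/
abbrev C2 : Type := EuclideanSpace ℂ (Fin 2)

/-- The projective line. -/
abbrev P1 : Type := Projectivization ℂ (ℂ × ℂ)

/-- `p` is a vector of homogeneous coordinates of `a`. -/
def Rep (p : ℂ × ℂ) (a : P1) : Prop := ∃ hp : p ≠ 0, Projectivization.mk ℂ p hp = a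

/-- The affine coordinate `p₂ / p₁` of the point `[p₁ : p₂]`. -/
def aff (a : P1) : ℂ := a.rep.2 / a.rep.1

section

variable (E F : Type) [NormedAddCommGroup E] [NormedSpace ℂ E] [NormedAddCommGroup F]
  [NormedSpace ℂ F] {M N : Type} [TopologicalSpace M] [ChartedSpace E M] [TopologicalSpace N]
  [ChartedSpace F N]

/-- Holomorphic near the point `x`, for manifolds modelled on `E` and `F`. -/
def HolAt (f : M → N) (x : M) : Prop := ContMDiffAt 𝓘(ℂ, E) 𝓘(ℂ, F) ω f x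

/-- Complex differentiable on a set. -/
def HolOn (f : M → N) (U : Set M) : Prop := MDifferentiableOn 𝓘(ℂ, E) 𝓘(ℂ, F) f U

/-- The differential of `f` at `x`. -/
def difL (f : M → N) (x : M) : E →L[ℂ] F := mfderiv 𝓘(ℂ, E) 𝓘(ℂ, F) f x

/-- The differential of `f` at `x` applied to a tangent vector. -/
def dif (f : M → N) (x : M) (v : E) : F := difL E F f x v

end

/-- A complex surface. -/
def IsSurface (X : Type) [TopologicalSpace X] [ChartedSpace C2 X] : Prop :=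
  IsManifold 𝓘(ℂ, C2) ω X

section

variable {X : Type} [TopologicalSpace X] [ChartedSpace C2 X]

/-- A nowhere vanishing holomorphic two-form. -/
structure IsSympl (σ : X → C2 → C2 → ℂ) : Prop where
  lin : ∀ x v, IsLinearMap ℂ fun u => σ x u v
  swap : ∀ x u v, σ x u v = -σ x v u
  ne : ∀ x, ∃ u v, σ x u v ≠ 0
  hol : ∀ (x₀ : X) (u v : C2), AnalyticOnNhd ℂ (fun q : C2 => σ ((chartAt C2 x₀).symm q)
    (dif C2 C2 (chartAt C2 x₀).symm q u) (dif C2 C2 (chartAt C2 x₀).symm q v))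
    (chartAt C2 x₀).target

/-- `p` gives holomorphic homogeneous coordinates of `π` near `x`. -/
def LiftAt (π : X → P1) (p : X → ℂ × ℂ) (x : X) : Prop :=
  HolAt C2 (ℂ × ℂ) p x ∧ ∀ᶠ y in 𝓝 x, Rep (p y) (π y)

/-- A holomorphic map to the projective line. -/
def HolP (π : X → P1) : Prop := ∀ x, ∃ p, LiftAt π p x

/-- The differential of `[p₁ : p₂]` at `x` does not kill `v`. -/
def Moves (p : X → ℂ × ℂ) (x : X) (v : C2) : Prop :=
  (p x).1 * (dif C2 (ℂ × ℂ) p x v).2 ≠ (p x).2 * (dif C2 (ℂ × ℂ) p x v).1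

/-- Through every point `x` there are two holomorphic maps to the projective line, the first
submersive at `x`, the second not constant near `x` on the fibre of the first. -/
def TwoPencils (X : Type) [TopologicalSpace X] [ChartedSpace C2 X] : Prop :=
  ∀ x : X, ∃ π π' : X → P1, HolP π ∧ HolP π' ∧ (∃ p v, LiftAt π p x ∧ Moves p x v) ∧
    ∃ᶠ y in 𝓝 x, π y = π x ∧ π' y ≠ π' x

/-- An entire integral curve of the Hamiltonian vector field of `y`. -/
def HamCurve (σ : X → C2 → C2 → ℂ) (y : X → ℂ) (γ : ℂ → X) : Prop :=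
  HolOn ℂ C2 γ Set.univ ∧ ∀ (s : ℂ) (v : C2),
    σ (γ s) (dif ℂ C2 γ s 1) v = dif C2 ℂ y (γ s) v

variable {X' : Type} [TopologicalSpace X'] [ChartedSpace C2 X']

/-- `φ` and `ψ` are inverse biholomorphisms over the complement of the point `a`. -/
structure IsoOff (π : X → P1) (π' : X' → P1) (a : P1) (φ : X → X') (ψ : X' → X) : Prop where
  hol : ∀ x, π x ≠ a → HolAt C2 C2 φ x
  hol' : ∀ x, π' x ≠ a → HolAt C2 C2 ψ x
  ov : ∀ x, π x ≠ a → π' (φ x) = π x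
  ov' : ∀ x, π' x ≠ a → π (ψ x) = π' x
  left : ∀ x, π x ≠ a → ψ (φ x) = x
  right : ∀ x, π' x ≠ a → φ (ψ x) = x

/-- `X` is obtained from `X'` by cutting along a fibration and regluing by the time `t`
Hamiltonian flow of the logarithm of the affine coordinate. -/
def Twist (X X' : Type) [TopologicalSpace X] [ChartedSpace C2 X] [TopologicalSpace X']
    [ChartedSpace C2 X'] : Prop :=
  ∃ (σ' : X' → C2 → C2 → ℂ) (π : X → P1) (π' : X' → P1) (a₀ a₁ : P1) (φ₀ φ₁ : X → X')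
    (ψ₀ ψ₁ : X' → X) (t : ℂ), IsSympl σ' ∧ HolP π ∧ HolP π' ∧ Rep (0, 1) a₀ ∧ Rep (1, 0) a₁ ∧
    IsoOff π π' a₀ φ₀ ψ₀ ∧ IsoOff π π' a₁ φ₁ ψ₁ ∧
    ∀ x, π x ≠ a₀ → π x ≠ a₁ → ∃ γ, HamCurve σ' (fun y => aff (π' y)) γ ∧ γ 0 = φ₀ x ∧
      γ (t / aff (π x)) = φ₁ x

/-- A form of degree `(2, 2, 2)`. -/
def tri (c : Fin 3 → Fin 3 → Fin 3 → ℂ) (w : Fin 3 → ℂ × ℂ) : ℂ :=
  ∑ i, ∑ j, ∑ k, c i j k * ((w 0).1 ^ (i : ℕ) * (w 0).2 ^ (2 - (i : ℕ))) *
    ((w 1).1 ^ (j : ℕ) * (w 1).2 ^ (2 - (j : ℕ))) * ((w 2).1 ^ (k : ℕ) * (w 2).2 ^ (2 - (k : ℕ)))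

/-- `X` is embedded in the product of three projective lines as a smooth surface of degree
`(2, 2, 2)`. -/
def IsWehler (X : Type) [TopologicalSpace X] [ChartedSpace C2 X] : Prop :=
  ∃ (c : Fin 3 → Fin 3 → Fin 3 → ℂ) (π : Fin 3 → X → P1), (∀ i, HolP (π i)) ∧
    (∀ w : Fin 3 → ℂ × ℂ, (∀ i, w i ≠ 0) → tri c w = 0 → fderiv ℂ (tri c) w ≠ 0) ∧
    (∀ w : Fin 3 → ℂ × ℂ, (∀ i, w i ≠ 0) → (tri c w = 0 ↔ ∃ x, ∀ i, Rep (w i) (π i x))) ∧
    (∀ x y, (∀ i, π i x = π i y) → x = y) ∧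
    ∀ (x : X) (v : C2), v ≠ 0 → ∃ i p, LiftAt (π i) p x ∧ Moves p x v

end

/-- The convex approximation property. -/
def IsOka (X : Type) [MetricSpace X] [ChartedSpace C2 X] : Prop :=
  ∀ (m : ℕ) (K U : Set (EuclideanSpace ℂ (Fin m))) (f : EuclideanSpace ℂ (Fin m) → X) (ε : ℝ),
    K.Nonempty → IsCompact K → Convex ℝ K → IsOpen U → K ⊆ U →
    HolOn (EuclideanSpace ℂ (Fin m)) C2 f U → 0 < ε →
    ∃ F : EuclideanSpace ℂ (Fin m) → X,
      HolOn (EuclideanSpace ℂ (Fin m)) C2 F Set.univ ∧ ∀ z ∈ K, dist (F z) (f z) < ε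

end Vale.Agent.P290S
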