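import Vale.Agent.P290S.S1

/-! P290: explicit families of K3 surfaces. -/

open scoped Manifold ContDiff Topology

noncomputable section

namespace Vale.Agent.P290S

/-- The diagonal action of a torus with weights `d`. -/
def tact {ι κ : Type} [Fintype κ] (d : κ → ι → ℕ) (c : κ → ℂ) (w : ι → ℂ) : ι → ℂ :=
  fun i => (∏ k, c k ^ d k i) * w i

/-- The tangent vectors of the orbits. -/
def orb {ι κ : Type} [Fintype κ] (d : κ → ι → ℕ) (c : κ → ℂ) (w : ι → ℂ) : ι → ℂ :=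
  fun i => (∑ k, c k * (d k i : ℂ)) * w i

/-- `X` is the quotient of the cone `Z` by the torus with weights `d`: the points of `X` are the
orbits, and there are holomorphic local sections, immersive modulo the orbits. -/
def IsQuot (X : Type) [TopologicalSpace X] [ChartedSpace C2 X] {ι κ : Type} [Fintype ι]
    [Fintype κ] (d : κ → ι → ℕ) (Z : Set (ι → ℂ)) : Prop :=
  ∃ ρ : (ι → ℂ) → X,
    (∀ w ∈ Z, ∀ w' ∈ Z, ρ w = ρ w' ↔ ∃ c : κ → ℂ, (∀ k, c k ≠ 0) ∧ w' = tact d c w) ∧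
    ∀ x, ∃ l : X → ι → ℂ, HolAt C2 (ι → ℂ) l x ∧
      (∀ᶠ y in 𝓝 x, l y ∈ Z ∧ ρ (l y) = y) ∧
      ∀ (v : C2) (c : κ → ℂ), dif C2 (ι → ℂ) l x v = orb d c (l x) → v = 0

/-- A form of bidegree `(4, 4)` in the first four coordinates. -/
def bi (c : Fin 5 → Fin 5 → ℂ) (w : Fin 5 → ℂ) : ℂ :=
  ∑ i, ∑ j, c i j * (w 0 ^ (i : ℕ) * w 1 ^ (4 - (i : ℕ))) * (w 2 ^ (j : ℕ) * w 3 ^ (4 - (j : ℕ)))

/-- The binary quartic with roots `e`. -/
def quart (e : Fin 4 → ℂ) (s t : ℂ) : ℂ := ∏ i, (s - e i * t)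

variable (X : Type) [TopologicalSpace X] [ChartedSpace C2 X]

/-- The double cover of the product of two projective lines branched along a smooth curve of
bidegree `(4, 4)`. -/
def IsDouble : Prop :=
  ∃ c : Fin 5 → Fin 5 → ℂ,
    (∀ w : Fin 5 → ℂ, (w 0, w 1) ≠ 0 → (w 2, w 3) ≠ 0 → bi c w = 0 → fderiv ℂ (bi c) w ≠ 0) ∧
    IsQuot X ![![1, 1, 0, 0, 2], ![0, 0, 1, 1, 2]]
      {w : Fin 5 → ℂ | (w 0, w 1) ≠ 0 ∧ (w 2, w 3) ≠ 0 ∧ w 4 ^ 2 = bi c w}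

/-- The Kummer surface of a product of two elliptic curves. -/
def IsKumProd : Prop :=
  ∃ e e' : Fin 4 → ℂ, Function.Injective e ∧ Function.Injective e' ∧
    IsQuot X ![![1, 1, 0, 0, 2, 0], ![0, 0, 1, 1, 0, 2], ![0, 0, 0, 0, 1, 1]]
      {w : Fin 6 → ℂ | (w 0, w 1) ≠ 0 ∧ (w 2, w 3) ≠ 0 ∧ (w 4, w 5) ≠ 0 ∧
        w 4 ^ 2 * quart e' (w 2) (w 3) = w 5 ^ 2 * quart e (w 0) (w 1)}

/-- A smooth intersection of three diagonal quadrics. -/
def IsDiag : Prop :=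
  ∃ a : Matrix (Fin 3) (Fin 6) ℂ,
    (∀ s : Fin 3 → Fin 6, Function.Injective s → (a.submatrix id s).det ≠ 0) ∧
    IsQuot X (fun (_ : Fin 1) (_ : Fin 6) => 1)
      {w : Fin 6 → ℂ | w ≠ 0 ∧ ∀ i, ∑ j, a i j * w j ^ 2 = 0}

/-- A smooth quartic surface with separated variables. -/
def IsSplitQ : Prop :=
  ∃ e e' : Fin 4 → ℂ, Function.Injective e ∧ Function.Injective e' ∧
    IsQuot X (fun (_ : Fin 1) (_ : Fin 4) => 1)
      {w : Fin 4 → ℂ | w ≠ 0 ∧ quart e (w 0) (w 1) = quart e' (w 2) (w 3)}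

end Vale.Agent.P290S
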