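import Vale.Agent.P290S.S1

/-! P290: elliptic fibrations and their Weierstrass data. -/

open scoped Manifold ContDiff Topology

noncomputable section

namespace Vale.Agent.P290S

variable {X : Type} [TopologicalSpace X] [ChartedSpace C2 X]

/-- `π` is submersive at `x`. -/
def Reg (π : X → P1) (x : X) : Prop := ∃ p v, LiftAt π p x ∧ Moves p x v

/-- An elliptic fibration with reduced irreducible fibres on a symplectic surface. -/
structure IsEll (σ : X → C2 → C2 → ℂ) (π : X → P1) : Prop where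
  sym : IsSympl σ
  hol : HolP π
  fin : {x | ¬ Reg π x}.Finite
  conn : ∀ a, IsConnected {x | π x = a ∧ Reg π x}

/-- The period lattice of the Hamiltonian flow of the affine coordinate on a smooth fibre over `z`
has the invariants `∑ αᵢ zⁱ` and `∑ βᵢ zⁱ`. -/
def HasInv (σ : X → C2 → C2 → ℂ) (π : X → P1) (α : Fin 9 → ℂ) (β : Fin 13 → ℂ) : Prop :=
  ∀ z : ℂ, (∀ x, Rep (1, z) (π x) → Reg π x) → ∃ L : PeriodPair,
    L.g₂ = ∑ i, α i * z ^ (i : ℕ) ∧ L.g₃ = ∑ i, β i * z ^ (i : ℕ) ∧
    ∀ γ, HamCurve σ (fun y => aff (π y)) γ → Rep (1, z) (π (γ 0)) →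
      ∀ t, γ t = γ 0 ↔ t ∈ L.lattice

end Vale.Agent.P290S
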