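import Vale.Agent.P290S.S1

/-! P290: Kummer surfaces and families. -/

open scoped Manifold ContDiff Topology

noncomputable section

namespace Vale.Agent.P290S

section

variable (E F : Type) [NormedAddCommGroup E] [NormedSpace ℂ E] [NormedAddCommGroup F]
  [NormedSpace ℂ F] {M N : Type} [TopologicalSpace M] [ChartedSpace E M] [TopologicalSpace N]
  [ChartedSpace F N]

/-- A holomorphic immersion at `x`. -/
def ImmAt (f : M → N) (x : M) : Prop := HolAt E F f x ∧ Function.Injective (difL E F f x)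

/-- A holomorphic submersion at `x`. -/
def SubAt (f : M → N) (x : M) : Prop := HolAt E F f x ∧ Function.Surjective (difL E F f x)

/-- A complex manifold modelled on `E`. -/
def IsMfd (M : Type) [TopologicalSpace M] [ChartedSpace E M] : Prop := IsManifold 𝓘(ℂ, E) ω M

end

/-- `X` is the minimal resolution of the quotient of the plane by `x ↦ ± x + l`, `l ∈ Λ`: `q` is the
quotient map off the half periods, and near the curve over a half period `μ` the point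
`q (μ + w α)` has the coordinates `(w ^ 2, α)`. -/
structure IsKummer {X : Type} [TopologicalSpace X] [ChartedSpace C2 X]
    (Λ : Submodule ℤ (ℂ × ℂ)) (q : ℂ × ℂ → X) (e : ℂ × ℂ → ℂ × ℂ × ℂ → X) : Prop where
  qeq : ∀ x y, x + x ∉ Λ → y + y ∉ Λ → (q x = q y ↔ x - y ∈ Λ ∨ x + y ∈ Λ)
  qhol : ∀ x, x + x ∉ Λ → ImmAt (ℂ × ℂ) C2 q x
  ehol : ∀ μ α, μ + μ ∈ Λ → α ≠ 0 → SubAt (ℂ × ℂ × ℂ) C2 (e μ) (0, α) ∧
    ∀ᶠ v : ℂ × ℂ × ℂ in 𝓝 (0, α), v.1 ≠ 0 → e μ (v.1 ^ 2, v.2) = q (μ + v.1 • v.2)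
  eeq : ∀ μ μ' α α', μ + μ ∈ Λ → μ' + μ' ∈ Λ → α ≠ 0 → α' ≠ 0 →
    (e μ (0, α) = e μ' (0, α') ↔ μ - μ' ∈ Λ ∧ α.1 * α'.2 = α.2 * α'.1)
  ene : ∀ x μ α, x + x ∉ Λ → μ + μ ∈ Λ → α ≠ 0 → q x ≠ e μ (0, α)
  cover : ∀ y, (∃ x, x + x ∉ Λ ∧ q x = y) ∨ ∃ μ α, μ + μ ∈ Λ ∧ α ≠ 0 ∧ e μ (0, α) = y

/-- A holomorphic submersion `p : Y → T` whose fibre over `t ∈ B` is the compact surface `X t`,
embedded by `j t`. -/
def IsFamily {T Y : Type} [NormedAddCommGroup T] [NormedSpace ℂ T] [TopologicalSpace Y]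
    [ChartedSpace (C2 × T) Y] (B : Set T) (p : Y → T) (X : T → Type)
    [∀ t, TopologicalSpace (X t)] [∀ t, ChartedSpace C2 (X t)] (j : ∀ t, X t → Y) : Prop :=
  IsMfd (C2 × T) Y ∧ (∀ y, SubAt (C2 × T) T p y) ∧
    ∀ t ∈ B, IsSurface (X t) ∧ CompactSpace (X t) ∧ Function.Injective (j t) ∧
      Set.range (j t) = p ⁻¹' {t} ∧ ∀ x, ImmAt C2 (C2 × T) (j t) x

end Vale.Agent.P290S
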